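import Mathlib

/-!
# Farthest points of compact sets in Euclidean spaces (helper1, row 125 / S0167, piece of D1)

For a compact set `K` in a complete real inner product space:
* a farthest point `q` of `K` from a centre `c` maximises the functional `⟪·, q - c⟫` on `K`, and
  the slices `{z ∈ K | ⟪q, q - c⟫ - γ ≤ ⟪z, q - c⟫}` have radius `≤ √(2γ)` around `q`;
* `K` is contained in the closed convex hull of its farthest points.
-/

set_option autoImplicit false

open scoped RealInnerProductSpace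

namespace Crest.Agent.Helper1

variable {E : Type*} [NormedAddCommGroup E] [InnerProductSpace ℝ E]

/-- `q` is a farthest point of `K` from the centre `c`. -/
def IsFarthest (K : Set E) (c q : E) : Prop := q ∈ K ∧ ∀ z ∈ K, ‖z - c‖ ≤ ‖q - c‖

/-- A farthest point maximises the linear functional `⟪·, q - c⟫` on `K`. -/
theorem IsFarthest.inner_le {K : Set E} {c q : E} (h : IsFarthest K c q) {z : E} (hz : z ∈ K) :
    ⟪z, q - c⟫ ≤ ⟪q, q - c⟫ := by
  have h1 : ⟪z - c, q - c⟫ ≤ ‖z - c‖ * ‖q - c‖ := real_inner_le_norm _ _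
  have h2 : ‖z - c‖ * ‖q - c‖ ≤ ‖q - c‖ * ‖q - c‖ :=
    mul_le_mul_of_nonneg_right (h.2 z hz) (norm_nonneg _)
  have h3 : ⟪q - c, q - c⟫ = ‖q - c‖ * ‖q - c‖ := real_inner_self_eq_norm_mul_norm _
  have h4 : ⟪q, q - c⟫ - ⟪z, q - c⟫ = ⟪q - c, q - c⟫ - ⟪z - c, q - c⟫ := by
    simp only [inner_sub_left]; ring
  linarith

/-- Slices of `K` near a farthest point are small: if `⟪z, q - c⟫ ≥ ⟪q, q - c⟫ - γ` then
`‖z - q‖² ≤ 2γ`. -/
theorem IsFarthest.slice {K : Set E} {c q : E} (h : IsFarthest K c q) {z : E} (hz : z ∈ K)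
    {γ : ℝ} (hγ : ⟪q, q - c⟫ - γ ≤ ⟪z, q - c⟫) : ‖z - q‖ ^ 2 ≤ 2 * γ := by
  have e : z - q = (z - c) - (q - c) := by abel
  have h1 : ‖z - q‖ ^ 2 = ‖z - c‖ ^ 2 - 2 * ⟪z - c, q - c⟫ + ‖q - c‖ ^ 2 := by
    rw [e, norm_sub_sq_real]
  have h2 : ‖z - c‖ ^ 2 ≤ ‖q - c‖ ^ 2 :=
    pow_le_pow_left₀ (norm_nonneg _) (h.2 z hz) 2
  have h3 : ⟪q - c, q - c⟫ = ‖q - c‖ ^ 2 := real_inner_self_eq_norm_sq _
  have h4 : ⟪q, q - c⟫ - ⟪z, q - c⟫ = ⟪q - c, q - c⟫ - ⟪z - c, q - c⟫ := by
    simp only [inner_sub_left]; ring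
  linarith

omit [InnerProductSpace ℝ E] in
/-- In a compact nonempty set, farthest points from any centre exist. -/
theorem exists_isFarthest {K : Set E} (hK : IsCompact K) (hne : K.Nonempty) (c : E) :
    ∃ q, IsFarthest K c q := by
  obtain ⟨q, hq, hmax⟩ := hK.exists_isMaxOn hne
    (f := fun z => ‖z - c‖) (by fun_prop : Continuous fun z : E => ‖z - c‖).continuousOn
  exact ⟨q, hq, fun z hz => hmax hz⟩

/-- A compact set is contained in the closed convex hull of its farthest points. -/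
theorem subset_closure_convexHull_farthest [CompleteSpace E] {K : Set E} (hK : IsCompact K) :
    K ⊆ closure (convexHull ℝ {q | ∃ c, IsFarthest K c q}) := by
  intro p hp
  by_contra hnot
  set F : Set E := {q | ∃ c, IsFarthest K c q} with hF
  have hconv : Convex ℝ (closure (convexHull ℝ F)) := (convex_convexHull ℝ F).closure
  obtain ⟨f, s, hfs, hsp⟩ := geometric_hahn_banach_closed_point hconv isClosed_closure hnot
  -- Riesz vector of `f`
  set u : E := (InnerProductSpace.toDual ℝ E).symm f with hu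
  have hfu : ∀ x, f x = ⟪u, x⟫ := fun x => by
    rw [hu, InnerProductSpace.toDual_symm_apply]
  obtain ⟨M, hM⟩ := hK.isBounded.exists_norm_le
  have hM0 : 0 ≤ M := le_trans (norm_nonneg p) (hM p hp)
  set g : ℝ := f p - s with hg
  have hgpos : 0 < g := by rw [hg]; linarith
  set R : ℝ := M ^ 2 / (2 * g) + 1 with hR
  have hRpos : 0 < R := by
    have : 0 ≤ M ^ 2 / (2 * g) := by positivity
    rw [hR]; linarith
  obtain ⟨q, hq⟩ := exists_isFarthest hK ⟨p, hp⟩ (-(R • u))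
  have hqF : q ∈ closure (convexHull ℝ F) :=
    subset_closure (subset_convexHull ℝ F ⟨_, hq⟩)
  have hfq : f q < s := hfs q hqF
  have hfar := hq.2 p hp
  have hsq : ‖p - -(R • u)‖ ^ 2 ≤ ‖q - -(R • u)‖ ^ 2 := pow_le_pow_left₀ (norm_nonneg _) hfar 2
  have e1 : ∀ z : E, ‖z - -(R • u)‖ ^ 2 = ‖z‖ ^ 2 + 2 * R * ⟪u, z⟫ + ‖R • u‖ ^ 2 := by
    intro z
    rw [sub_neg_eq_add, norm_add_sq_real, inner_smul_right, real_inner_comm]
    ring
  rw [e1 p, e1 q] at hsq
  have hpn : ‖p‖ ^ 2 ≥ 0 := by positivity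
  have hqn : ‖q‖ ^ 2 ≤ M ^ 2 := pow_le_pow_left₀ (norm_nonneg _) (hM q hq.1) 2
  rw [← hfu p, ← hfu q] at hsq
  -- 2R (f q - f p) ≥ -M²
  have h5 : 2 * R * (f p - f q) ≤ M ^ 2 := by nlinarith
  have h6 : 2 * R * g ≤ 2 * R * (f p - f q) := by
    have : g ≤ f p - f q := by rw [hg]; linarith
    exact mul_le_mul_of_nonneg_left this (by linarith)
  have h7 : 2 * R * g = M ^ 2 + 2 * g := by
    rw [hR]; field_simp
  linarith

/-- Packaged form: every point of a compact set `K` is approximated by a finite convex combination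
of farthest points of `K`. -/
theorem exists_convexComb_farthest [CompleteSpace E] {K : Set E} (hK : IsCompact K) {p : E}
    (hp : p ∈ K) {δ : ℝ} (hδ : 0 < δ) :
    ∃ (ι : Type) (_ : Fintype ι) (w : ι → ℝ) (q c : ι → E), (∀ i, 0 ≤ w i) ∧ ∑ i, w i = 1 ∧
      (∀ i, IsFarthest K (c i) (q i)) ∧ ‖p - ∑ i, w i • q i‖ < δ := by
  have hmem := subset_closure_convexHull_farthest hK hp
  obtain ⟨y, hy, hdist⟩ := Metric.mem_closure_iff.mp hmem δ hδ
  obtain ⟨ι, hι, w, z, hw0, hw1, hz, hsum⟩ := mem_convexHull_iff_exists_fintype.mp hy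
  choose c hc using hz
  refine ⟨ι, hι, w, z, c, hw0, hw1, hc, ?_⟩
  rw [hsum, ← dist_eq_norm]
  exact hdist

/-- Variant of `IsFarthest.inner_le` with both sides centred at `c`. -/
theorem IsFarthest.inner_sub_le {K : Set E} {c q : E} (h : IsFarthest K c q) {k : E}
    (hk : k ∈ K) : inner ℝ (k - c) (q - c) ≤ inner ℝ (q - c) (q - c) := by
  have := h.inner_le hk
  have h4 : ⟪q, q - c⟫ - ⟪k, q - c⟫ = ⟪q - c, q - c⟫ - ⟪k - c, q - c⟫ := by
    simp only [inner_sub_left]; ring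
  linarith

/-- Small slices, centred form: `‖k - q‖² ≤ 2 (⟪q - c, q - c⟫ - ⟪k - c, q - c⟫)`. -/
theorem IsFarthest.norm_sub_sq_le {K : Set E} {c q : E} (h : IsFarthest K c q) {k : E}
    (hk : k ∈ K) :
    ‖k - q‖ ^ 2 ≤ 2 * (inner ℝ (q - c) (q - c) - inner ℝ (k - c) (q - c)) := by
  have h4 : ⟪q, q - c⟫ - ⟪k, q - c⟫ = ⟪q - c, q - c⟫ - ⟪k - c, q - c⟫ := by
    simp only [inner_sub_left]; ring
  refine h.slice hk (γ := ⟪q - c, q - c⟫ - ⟪k - c, q - c⟫) ?_
  linarith

/-- `Fin n`-indexed packaged form. -/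
theorem exists_convexCombo_farthest [CompleteSpace E] {K : Set E} (hK : IsCompact K) (ξ : E)
    (hξ : ξ ∈ K) (δ : ℝ) (hδ : 0 < δ) :
    ∃ (n : ℕ) (lam : Fin n → ℝ) (c q : Fin n → E), (∀ i, 0 ≤ lam i) ∧ ∑ i, lam i = 1 ∧
      (∀ i, IsFarthest K (c i) (q i)) ∧ ‖ξ - ∑ i, lam i • q i‖ < δ := by
  obtain ⟨ι, hι, w, q, c, hw0, hw1, hfar, hd⟩ := exists_convexComb_farthest hK hξ hδ
  let e : ι ≃ Fin (Fintype.card ι) := Fintype.equivFin ι
  refine ⟨Fintype.card ι, fun i => w (e.symm i), fun i => c (e.symm i), fun i => q (e.symm i),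
    fun i => hw0 _, ?_, fun i => hfar _, ?_⟩
  · rw [← hw1]
    exact Equiv.sum_comp e.symm w
  · have : ∑ i, w (e.symm i) • q (e.symm i) = ∑ i, w i • q i :=
      Equiv.sum_comp e.symm (fun i => w i • q i)
    rw [this]
    exact hd

/-- Bounded-set form (no compactness or convexity of `K` needed): every point of a bounded set `K`
in a finite-dimensional inner product space is approximated by a finite convex combination of
points `q i ∈ closure K`, each of which is farthest from some centre `c i` among the points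
of `K`. -/
theorem exists_farthest_combo {Q : Type*} [NormedAddCommGroup Q] [InnerProductSpace ℝ Q]
    [FiniteDimensional ℝ Q] (K : Set Q) (hK : Bornology.IsBounded K) (p : Q) (hp : p ∈ K)
    (δ : ℝ) (hδ : 0 < δ) :
    ∃ (ι : Type) (t : Finset ι) (lam : ι → ℝ) (q c : ι → Q), (∀ i ∈ t, 0 ≤ lam i) ∧
      ∑ i ∈ t, lam i = 1 ∧ (∀ i ∈ t, q i ∈ closure K) ∧
      (∀ i ∈ t, ∀ k ∈ K, ‖k - c i‖ ≤ ‖q i - c i‖) ∧ ‖p - ∑ i ∈ t, lam i • q i‖ < δ := by
  have : CompleteSpace Q := FiniteDimensional.complete ℝ Q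
  have : ProperSpace Q := FiniteDimensional.proper ℝ Q
  have hc : IsCompact (closure K) := hK.isCompact_closure
  obtain ⟨ι, hι, w, q, c, hw0, hw1, hfar, hd⟩ :=
    exists_convexComb_farthest hc (subset_closure hp) hδ
  exact ⟨ι, Finset.univ, w, q, c, fun i _ => hw0 i, hw1, fun i _ => (hfar i).1,
    fun i _ k hk => (hfar i).2 k (subset_closure hk), hd⟩

end Crest.Agent.Helper1
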