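import Mathlib

/-!
# Row 211 (helper1): the explicit cylinder cover of the tetrahedron — real algebra

Coordinates `(x, y, s)` with `s = z / √2`: the tetrahedron is `{|x| ≤ 1 - s, |y| ≤ s}`.
Lower sweep with tilt parameter `lam`:
`Φ(x, t, ρ) = (x, ρ t + x lam A(t), ρ / 2 + x lam t / 2)`, `|t| ≤ 1/2`, `0 ≤ ρ ≤ R(t)`,
`A(t) = t²/2 + 1/8`, `R(t) = 1 + lam² (t²/8 + t⁴/2) + lam⁴ t⁴ / 25`.
The upper sweep is the image of the lower sweep with `-lam` under `(x, y, s) ↦ (y, x, 1 - s)`.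
This file proves, purely in real arithmetic, that the two sweeps cover the tetrahedron
(`cover_alg`) and that each sector of a sweep lies in a thin triangle (`sector_alg`).
-/

set_option autoImplicit false

namespace Crest.Agent.Helper1.TetraCover

/-- `A(t) = t²/2 + 1/8`. -/
noncomputable def Af (t : ℝ) : ℝ := t ^ 2 / 2 + 1 / 8

/-- Excess radius `r(t) = lam² (t²/8 + t⁴/2) + lam⁴ t⁴ / 25`. -/
noncomputable def rf (lam t : ℝ) : ℝ := lam ^ 2 * (t ^ 2 / 8 + t ^ 4 / 2) + lam ^ 4 * t ^ 4 / 25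

/-- Radius `R(t) = 1 + r(t)`. -/
noncomputable def Rf (lam t : ℝ) : ℝ := 1 + rf lam t

theorem rf_neg (lam t : ℝ) : rf (-lam) t = rf lam t := by
  unfold rf; ring

theorem Rf_neg (lam t : ℝ) : Rf (-lam) t = Rf lam t := by
  unfold Rf; rw [rf_neg]

theorem rf_nonneg (lam t : ℝ) : 0 ≤ rf lam t := by
  unfold rf; positivity

theorem one_le_Rf (lam t : ℝ) : 1 ≤ Rf lam t := by
  unfold Rf; linarith [rf_nonneg lam t]

/-- The lower representation of a point `(x, y, s)` with `|y| ≤ s`. -/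
theorem exists_lowRep (lam x y s : ℝ) (hy : |y| ≤ s) :
    ∃ t ρ : ℝ, |t| ≤ 1 / 2 ∧ 0 ≤ ρ ∧ y = ρ * t + x * lam * Af t ∧
      s = ρ / 2 + x * lam * t / 2 := by
  obtain ⟨hy1, hy2⟩ := abs_le.mp hy
  have hs : 0 ≤ s := le_trans (abs_nonneg y) hy
  set m : ℝ := lam * x with hm
  set D : ℝ := 4 * s ^ 2 - 2 * m * y + m ^ 2 / 4 with hD
  have hD0 : 0 ≤ D := by
    rcases le_total 0 m with h | h
    · have : D = (2 * s - m / 2) ^ 2 + 2 * m * (s - y) := by rw [hD]; ring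
      rw [this]
      have : 0 ≤ 2 * m * (s - y) := by
        have : 0 ≤ s - y := by linarith
        positivity
      positivity
    · have : D = (2 * s + m / 2) ^ 2 + 2 * (-m) * (s + y) := by rw [hD]; ring
      rw [this]
      have : 0 ≤ 2 * (-m) * (s + y) := by
        have h1 : 0 ≤ s + y := by linarith
        have h2 : 0 ≤ -m := by linarith
        positivity
      positivity
  set ρ : ℝ := Real.sqrt D with hρ
  have hρ0 : 0 ≤ ρ := Real.sqrt_nonneg D
  have hρsq : ρ ^ 2 = D := Real.sq_sqrt hD0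
  rcases (add_nonneg (mul_nonneg zero_le_two hs) hρ0).eq_or_lt with h0 | hpos
  · -- degenerate: the origin
    have hs0 : s = 0 := by linarith
    have hρ00 : ρ = 0 := by linarith
    have hy0 : y = 0 := by
      have : |y| ≤ 0 := by rw [← hs0]; exact hy
      exact abs_nonpos_iff.mp this
    have hD00 : D = 0 := by rw [← hρsq, hρ00]; ring
    have hm0 : m = 0 := by
      rw [hD, hs0, hy0] at hD00
      have : m ^ 2 = 0 := by linarith
      exact pow_eq_zero_iff (two_ne_zero) |>.mp this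
    refine ⟨0, 0, by norm_num, le_refl _, ?_, ?_⟩
    · rw [hy0]
      have : x * lam = m := by rw [hm]; ring
      rw [this, hm0]; ring
    · rw [hs0]; ring
  · set t : ℝ := (2 * y - m / 4) / (2 * s + ρ) with ht
    have hne : (2 * s + ρ) ≠ 0 := ne_of_gt hpos
    have ht1 : t * (2 * s + ρ) = 2 * y - m / 4 := by
      rw [ht]; field_simp
    have hmt : m * t = 2 * s - ρ := by
      have h1 : m * t * (2 * s + ρ) = (2 * s - ρ) * (2 * s + ρ) := by
        have : m * t * (2 * s + ρ) = m * (t * (2 * s + ρ)) := by ring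
        rw [this, ht1]
        have : (2 * s - ρ) * (2 * s + ρ) = 4 * s ^ 2 - ρ ^ 2 := by ring
        rw [this, hρsq, hD]; ring
      exact mul_right_cancel₀ hne h1
    have habs : |t| ≤ 1 / 2 := by
      rw [ht, abs_div, abs_of_pos hpos, div_le_iff₀ hpos]
      -- |2y - m/4| ≤ (2s + ρ)/2
      have key : |4 * y - m / 2| - 2 * s ≤ ρ := by
        by_cases hq : |4 * y - m / 2| - 2 * s ≤ 0
        · linarith
        · rw [not_le] at hq
          rw [hρ]
          apply Real.le_sqrt_of_sq_le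
          rcases le_total 0 (4 * y - m / 2) with h | h
          · rw [abs_of_nonneg h] at hq ⊢
            have e : D - (4 * y - m / 2 - 2 * s) ^ 2 = (s - y) * (16 * y - 2 * m) := by
              rw [hD]; ring
            have : 0 ≤ (s - y) * (16 * y - 2 * m) := by
              apply mul_nonneg <;> linarith
            linarith
          · rw [abs_of_nonpos h] at hq ⊢
            have e : D - (-(4 * y - m / 2) - 2 * s) ^ 2 = (s + y) * (2 * m - 16 * y) := by
              rw [hD]; ring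
            have : 0 ≤ (s + y) * (2 * m - 16 * y) := by
              apply mul_nonneg <;> linarith
            linarith
      have e2 : |2 * y - m / 4| = |4 * y - m / 2| / 2 := by
        have : 2 * y - m / 4 = (4 * y - m / 2) / 2 := by ring
        rw [this, abs_div, abs_two]
      rw [e2]; linarith
    refine ⟨t, ρ, habs, hρ0, ?_, ?_⟩
    · have : x * lam = m := by rw [hm]; ring
      rw [this]
      unfold Af
      have h2 : 2 * s = ρ + m * t := by linarith
      have h3 : t * (ρ + m * t + ρ) = 2 * y - m / 4 := by rw [← h2]; exact ht1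
      linarith [h3]
    · have : x * lam * t = m * t := by rw [hm]; ring
      linarith

/-- The key linear identity between the lower data `(t, ρ)` and the upper data `(t', ρ')` of one
point. -/
theorem key_identity (lam x y s t ρ t' ρ' : ℝ)
    (h1 : y = ρ * t + x * lam * Af t) (h2 : s = ρ / 2 + x * lam * t / 2)
    (h3 : x = ρ' * t' + y * (-lam) * Af t') (h4 : 1 - s = ρ' / 2 + y * (-lam) * t' / 2) :
    (ρ - 1) * (1 - lam * t * t' + lam ^ 2 * Af t' * (Af t - t ^ 2)) +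
      (ρ' - 1) * (1 + lam * t * t' + lam ^ 2 * Af t * (Af t' - t' ^ 2)) =
      lam ^ 2 * (t ^ 2 * t' ^ 2 + (t ^ 2 + t' ^ 2) / 8) := by
  unfold Af at *
  linear_combination (lam ^ 2 * (t' ^ 2 / 2 + 1 / 8) * t + lam * t') * h1 +
    (lam ^ 2 * (t ^ 2 / 2 + 1 / 8) * t' - lam * t) * h3 +
    (-2 - 2 * lam ^ 2 * (t ^ 2 / 2 + 1 / 8) * (t' ^ 2 / 2 + 1 / 8)) * (h2 + h4)

/-- The gap-closing polynomial inequality. -/
theorem poly_ineq (lam t t' : ℝ) (hl : |lam| ≤ 1) (ht : |t| ≤ 1 / 2) (ht' : |t'| ≤ 1 / 2) :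
    lam ^ 2 * (t ^ 2 * t' ^ 2 + (t ^ 2 + t' ^ 2) / 8) ≤
      rf lam t * (1 - lam * t * t') + rf lam t' * (1 + lam * t * t') := by
  have hl2 : lam ^ 2 ≤ 1 := by
    have := sq_le_sq' (abs_le.mp hl).1 (abs_le.mp hl).2
    simpa using this
  have ht2 : t ^ 2 ≤ 1 / 4 := by
    have := sq_le_sq' (abs_le.mp ht).1 (abs_le.mp ht).2
    norm_num at this; linarith
  have ht2' : t' ^ 2 ≤ 1 / 4 := by
    have := sq_le_sq' (abs_le.mp ht').1 (abs_le.mp ht').2
    norm_num at this; linarith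
  set B : ℝ := 1 / 8 + (1 / 2 + lam ^ 2 / 25) * (t ^ 2 + t' ^ 2) with hB
  have hB0 : 0 ≤ B := by rw [hB]; positivity
  have hB1 : B ≤ 2 / 5 := by
    rw [hB]
    have h1 : (1 / 2 + lam ^ 2 / 25) ≤ 27 / 50 := by linarith
    have h2 : t ^ 2 + t' ^ 2 ≤ 1 / 2 := by linarith
    have h3 : 0 ≤ t ^ 2 + t' ^ 2 := by positivity
    have h4 : 0 ≤ (1 / 2 + lam ^ 2 / 25) := by positivity
    nlinarith
  have hB2 : B ^ 2 ≤ 4 / 25 := by nlinarith
  have key : rf lam t * (1 - lam * t * t') + rf lam t' * (1 + lam * t * t') -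
      lam ^ 2 * (t ^ 2 * t' ^ 2 + (t ^ 2 + t' ^ 2) / 8) =
      lam ^ 2 * ((1 / 2) * ((t ^ 2 - t' ^ 2) - lam * (t * t') * B) ^ 2 +
        lam ^ 2 * (t * t') ^ 2 * (2 / 25 - B ^ 2 / 2) + lam ^ 2 / 25 * (t ^ 2 - t' ^ 2) ^ 2) := by
    rw [hB]; unfold rf; ring
  have hpos : 0 ≤ lam ^ 2 * ((1 / 2) * ((t ^ 2 - t' ^ 2) - lam * (t * t') * B) ^ 2 +
        lam ^ 2 * (t * t') ^ 2 * (2 / 25 - B ^ 2 / 2) + lam ^ 2 / 25 * (t ^ 2 - t' ^ 2) ^ 2) := by
    have h1 : 0 ≤ 2 / 25 - B ^ 2 / 2 := by linarith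
    positivity
  linarith

/-- The two sweeps cover the tetrahedron (in the coordinates `(x, y, s)`). -/
theorem cover_alg (lam x y s : ℝ) (hl : |lam| ≤ 1) (hx : |x| ≤ 1 - s) (hy : |y| ≤ s) :
    (∃ t ρ : ℝ, |t| ≤ 1 / 2 ∧ 0 ≤ ρ ∧ ρ ≤ Rf lam t ∧ y = ρ * t + x * lam * Af t ∧
        s = ρ / 2 + x * lam * t / 2) ∨
    (∃ t ρ : ℝ, |t| ≤ 1 / 2 ∧ 0 ≤ ρ ∧ ρ ≤ Rf (-lam) t ∧ x = ρ * t + y * (-lam) * Af t ∧
        1 - s = ρ / 2 + y * (-lam) * t / 2) := by
  obtain ⟨t, ρ, ht, hρ0, h1, h2⟩ := exists_lowRep lam x y s hy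
  obtain ⟨t', ρ', ht', hρ0', h3, h4⟩ := exists_lowRep (-lam) y x (1 - s) hx
  by_cases hc : ρ ≤ Rf lam t
  · exact Or.inl ⟨t, ρ, ht, hρ0, hc, h1, h2⟩
  by_cases hc' : ρ' ≤ Rf (-lam) t'
  · exact Or.inr ⟨t', ρ', ht', hρ0', hc', h3, h4⟩
  exfalso
  rw [not_le] at hc hc'
  rw [Rf_neg] at hc'
  unfold Rf at hc hc'
  have hid := key_identity lam x y s t ρ t' ρ' h1 h2 h3 h4
  have hpi := poly_ineq lam t t' hl ht ht'
  have hl2 : lam ^ 2 ≤ 1 := by
    have := sq_le_sq' (abs_le.mp hl).1 (abs_le.mp hl).2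
    simpa using this
  have ht2 : t ^ 2 ≤ 1 / 4 := by
    have := sq_le_sq' (abs_le.mp ht).1 (abs_le.mp ht).2
    norm_num at this; linarith
  have ht2' : t' ^ 2 ≤ 1 / 4 := by
    have := sq_le_sq' (abs_le.mp ht').1 (abs_le.mp ht').2
    norm_num at this; linarith
  -- |lam t t'| ≤ 1/4
  have hprod : |lam * t * t'| ≤ 1 / 4 := by
    rw [abs_mul, abs_mul]
    have h1 : |lam| * |t| ≤ 1 * (1 / 2) := mul_le_mul hl ht (abs_nonneg _) zero_le_one
    have h2 : |lam| * |t| * |t'| ≤ 1 * (1 / 2) * (1 / 2) :=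
      mul_le_mul h1 ht' (abs_nonneg _) (by norm_num)
    linarith
  obtain ⟨hp1, hp2⟩ := abs_le.mp hprod
  have hA : 0 ≤ Af t - t ^ 2 := by unfold Af; linarith
  have hA' : 0 ≤ Af t' - t' ^ 2 := by unfold Af; linarith
  have hAp : 0 ≤ Af t := by unfold Af; positivity
  have hAp' : 0 ≤ Af t' := by unfold Af; positivity
  have hc1 : 1 - lam * t * t' ≤ 1 - lam * t * t' + lam ^ 2 * Af t' * (Af t - t ^ 2) := by
    have : 0 ≤ lam ^ 2 * Af t' * (Af t - t ^ 2) := by positivity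
    linarith
  have hc2 : 1 + lam * t * t' ≤ 1 + lam * t * t' + lam ^ 2 * Af t * (Af t' - t' ^ 2) := by
    have : 0 ≤ lam ^ 2 * Af t * (Af t' - t' ^ 2) := by positivity
    linarith
  have hr := rf_nonneg lam t
  have hr' := rf_nonneg lam t'
  have ha : 0 < ρ - 1 := by linarith
  have ha' : 0 < ρ' - 1 := by linarith
  have hpos1 : 0 < 1 - lam * t * t' := by linarith
  have hpos2 : 0 < 1 + lam * t * t' := by linarith
  have e1 : rf lam t * (1 - lam * t * t') <
      (ρ - 1) * (1 - lam * t * t' + lam ^ 2 * Af t' * (Af t - t ^ 2)) := by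
    calc rf lam t * (1 - lam * t * t') < (ρ - 1) * (1 - lam * t * t') :=
          mul_lt_mul_of_pos_right (by linarith) hpos1
      _ ≤ (ρ - 1) * (1 - lam * t * t' + lam ^ 2 * Af t' * (Af t - t ^ 2)) :=
          mul_le_mul_of_nonneg_left hc1 ha.le
  have e2 : rf lam t' * (1 + lam * t * t') <
      (ρ' - 1) * (1 + lam * t * t' + lam ^ 2 * Af t * (Af t' - t' ^ 2)) := by
    calc rf lam t' * (1 + lam * t * t') < (ρ' - 1) * (1 + lam * t * t') :=
          mul_lt_mul_of_pos_right (by linarith) hpos2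
      _ ≤ (ρ' - 1) * (1 + lam * t * t' + lam ^ 2 * Af t * (Af t' - t' ^ 2)) :=
          mul_le_mul_of_nonneg_left hc2 ha'.le
  linarith

/-- Lipschitz bound for the radius. -/
theorem Rf_sub_le (lam t c : ℝ) (hl : |lam| ≤ 1) (ht : |t| ≤ 1 / 2) (hc : |c| ≤ 1 / 2) :
    Rf lam t - Rf lam c ≤ |lam| * |t - c| := by
  have hl2 : lam ^ 2 ≤ 1 := by
    have := sq_le_sq' (abs_le.mp hl).1 (abs_le.mp hl).2
    simpa using this
  have ht2 : t ^ 2 ≤ 1 / 4 := by
    have := sq_le_sq' (abs_le.mp ht).1 (abs_le.mp ht).2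
    norm_num at this; linarith
  have hc2 : c ^ 2 ≤ 1 / 4 := by
    have := sq_le_sq' (abs_le.mp hc).1 (abs_le.mp hc).2
    norm_num at this; linarith
  set B : ℝ := 1 / 8 + (1 / 2 + lam ^ 2 / 25) * (t ^ 2 + c ^ 2) with hB
  have hB0 : 0 ≤ B := by rw [hB]; positivity
  have hB1 : B ≤ 2 / 5 := by
    rw [hB]
    have h1 : (1 / 2 + lam ^ 2 / 25) ≤ 27 / 50 := by linarith
    have h2 : t ^ 2 + c ^ 2 ≤ 1 / 2 := by linarith
    have h3 : 0 ≤ t ^ 2 + c ^ 2 := by positivity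
    have h4 : 0 ≤ (1 / 2 + lam ^ 2 / 25) := by positivity
    nlinarith
  have e : Rf lam t - Rf lam c = lam ^ 2 * ((t - c) * ((t + c) * B)) := by
    rw [hB]; unfold Rf rf; ring
  have htc : |t + c| ≤ 1 := by
    have := abs_add_le t c
    linarith
  have h1 : |(t + c) * B| ≤ 1 := by
    rw [abs_mul, abs_of_nonneg hB0]
    have : |t + c| * B ≤ 1 * (2 / 5) := mul_le_mul htc hB1 hB0 zero_le_one
    linarith
  have h2 : (t - c) * ((t + c) * B) ≤ |t - c| := by
    calc (t - c) * ((t + c) * B) ≤ |(t - c) * ((t + c) * B)| := le_abs_self _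
      _ = |t - c| * |(t + c) * B| := abs_mul _ _
      _ ≤ |t - c| * 1 := mul_le_mul_of_nonneg_left h1 (abs_nonneg _)
      _ = |t - c| := mul_one _
  have h3 : lam ^ 2 ≤ |lam| := by
    have : lam ^ 2 = |lam| * |lam| := by rw [abs_mul_abs_self]; ring
    rw [this]
    calc |lam| * |lam| ≤ |lam| * 1 := mul_le_mul_of_nonneg_left hl (abs_nonneg _)
      _ = |lam| := mul_one _
  rw [e]
  calc lam ^ 2 * ((t - c) * ((t + c) * B)) ≤ lam ^ 2 * |t - c| :=
        mul_le_mul_of_nonneg_left h2 (sq_nonneg _)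
    _ ≤ |lam| * |t - c| := mul_le_mul_of_nonneg_right h3 (abs_nonneg _)

/-- A sector of the sweep lies in a thin triangle: `ξ = ρ + x lam (t - c)`,
`ζ = (t - c)(ρ + x lam (t - c)/2)` are the coordinates of the point relative to the tag `c`. -/
theorem sector_alg (lam x t ρ c h : ℝ) (hl : |lam| ≤ 1) (hx : |x| ≤ 1) (hτ : |t - c| ≤ h)
    (ht : |t| ≤ 1 / 2) (hc : |c| ≤ 1 / 2) (hρ0 : 0 ≤ ρ) (hρ : ρ ≤ Rf lam t) :
    ρ + x * lam * (t - c) ≤ Rf lam c + 2 * |lam| * h ∧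
      |(t - c) * (ρ + x * lam * (t - c) / 2)| ≤ h * (ρ + x * lam * (t - c) + 2 * |lam| * h) := by
  have hh : 0 ≤ h := le_trans (abs_nonneg _) hτ
  have hl0 : 0 ≤ |lam| := abs_nonneg _
  have hprod : |x * lam * (t - c)| ≤ |lam| * h := by
    rw [abs_mul, abs_mul]
    calc |x| * |lam| * |t - c| ≤ 1 * |lam| * h :=
          mul_le_mul (mul_le_mul_of_nonneg_right hx hl0) hτ (abs_nonneg _) (by positivity)
      _ = |lam| * h := by ring
  obtain ⟨hp1, hp2⟩ := abs_le.mp hprod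
  have hR := Rf_sub_le lam t c hl ht hc
  have hlt : |lam| * |t - c| ≤ |lam| * h := mul_le_mul_of_nonneg_left hτ hl0
  constructor
  · linarith
  · rw [abs_mul]
    have h1 : |ρ + x * lam * (t - c) / 2| ≤ ρ + |lam| * h / 2 := by
      rw [abs_le]
      constructor <;> linarith
    calc |t - c| * |ρ + x * lam * (t - c) / 2| ≤ h * (ρ + |lam| * h / 2) :=
          mul_le_mul hτ h1 (abs_nonneg _) hh
      _ ≤ h * (ρ + x * lam * (t - c) + 2 * |lam| * h) := by
          apply mul_le_mul_of_nonneg_left _ hh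
          have : 0 ≤ |lam| * h := by positivity
          linarith

/-- Midpoint of the `i`-th of `N` equal cells of `[-1/2, 1/2]`. -/
noncomputable def cmid (N i : ℕ) : ℝ := -1 / 2 + (2 * (i : ℝ) + 1) / (2 * N)

theorem abs_cmid_le (N i : ℕ) (hi : i < N) : |cmid N i| ≤ 1 / 2 := by
  have hN : (0 : ℝ) < N := by
    have : 0 < N := lt_of_le_of_lt (Nat.zero_le _) hi
    exact_mod_cast this
  have hi' : (i : ℝ) + 1 ≤ N := by exact_mod_cast hi
  have hi0 : (0 : ℝ) ≤ i := Nat.cast_nonneg _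
  unfold cmid
  rw [abs_le]
  constructor
  · have : 0 ≤ (2 * (i : ℝ) + 1) / (2 * N) := by positivity
    linarith
  · have : (2 * (i : ℝ) + 1) / (2 * N) ≤ 1 := by
      rw [div_le_one (by positivity)]
      linarith
    linarith

/-- Every `t ∈ [-1/2, 1/2]` lies within `1/(2N)` of some midpoint. -/
theorem exists_sector (N : ℕ) (hN : 0 < N) (t : ℝ) (ht : |t| ≤ 1 / 2) :
    ∃ i : ℕ, i < N ∧ |t - cmid N i| ≤ 1 / (2 * N) := by
  have hNr : (0 : ℝ) < N := by exact_mod_cast hN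
  obtain ⟨ht1, ht2⟩ := abs_le.mp ht
  set a : ℝ := (t + 1 / 2) * N with ha
  have ha0 : 0 ≤ a := by rw [ha]; apply mul_nonneg (by linarith) hNr.le
  have haN : a ≤ N := by
    rw [ha]
    calc (t + 1 / 2) * N ≤ 1 * N := mul_le_mul_of_nonneg_right (by linarith) hNr.le
      _ = N := one_mul _
  have hta : t = a / N - 1 / 2 := by rw [ha]; field_simp; ring
  by_cases hlt : a < N
  · refine ⟨⌊a⌋₊, ?_, ?_⟩
    · exact (Nat.floor_lt ha0).mpr hlt
    · have h1 : (⌊a⌋₊ : ℝ) ≤ a := Nat.floor_le ha0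
      have h2 : a < ⌊a⌋₊ + 1 := Nat.lt_floor_add_one a
      have e : t - cmid N ⌊a⌋₊ = (a - ⌊a⌋₊ - 1 / 2) / N := by
        rw [hta]; unfold cmid; field_simp; ring
      have h3 : |a - ⌊a⌋₊ - 1 / 2| ≤ 1 / 2 := by
        rw [abs_le]
        constructor <;> linarith
      rw [e, abs_div, abs_of_pos hNr, div_le_div_iff₀ hNr (by positivity)]
      nlinarith
  · have haeq : a = N := le_antisymm haN (not_lt.mp hlt)
    refine ⟨N - 1, Nat.sub_lt hN one_pos, ?_⟩
    have hc : ((N - 1 : ℕ) : ℝ) = (N : ℝ) - 1 := by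
      rw [Nat.cast_sub hN]; simp
    have e : t - cmid N (N - 1) = 1 / (2 * N) := by
      rw [hta, haeq]; unfold cmid; rw [hc]; field_simp; ring
    rw [e, abs_of_pos (by positivity)]

end Crest.Agent.Helper1.TetraCover
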