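import Mathlib
import Crest.Agent.Helper9.Proj
import Crest.Agent.Helper1.TetraCoverAlg

/-!
# Row 211 (helper1): the explicit cylinder cover of the tetrahedron — geometry in `E3`

Generic facts about a cylinder with axis `U` over the projection of an oblique triangle
`V₀ V₁ V₂`, the symmetry `Θ (x, y, z) = (y, x, √2 - z)` of the tetrahedron, the model
coordinates `pt x y s = (x, y, √2 s)` and the sector triangles.
-/

set_option autoImplicit false

open Crest.Agent.Helper9.Area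

namespace Crest.Agent.Helper1.TetraCover

/-! ### generic cylinder data -/

/-- The cylinder with unit axis `u` over the triangle `p q r` (shape of the statements). -/
def cylSet (u p q r : E3) : Set E3 :=
  {x : E3 | ∃ b ∈ convexHull ℝ {p, q, r}, ∃ t : ℝ, x = b + t • u}

theorem norm_unitize (U : E3) (hU : U ≠ 0) : ‖(‖U‖⁻¹ • U)‖ = 1 := by
  rw [norm_smul, norm_inv, norm_norm, inv_mul_cancel₀ (norm_ne_zero_iff.mpr hU)]

theorem inner_proj_unitize (U V : E3) (hU : U ≠ 0) : inner ℝ (proj U V) (‖U‖⁻¹ • U) = 0 := by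
  rw [inner_smul_right, inner_proj_self U V hU, mul_zero]

/-- A point `V + s • U` with `V` in the oblique triangle lies in the cylinder over the projected
triangle. -/
theorem mem_cylSet_of (U V₀ V₁ V₂ V : E3) (hU : U ≠ 0) (hV : V ∈ convexHull ℝ {V₀, V₁, V₂})
    (s : ℝ) : V + s • U ∈ cylSet (‖U‖⁻¹ • U) (proj U V₀) (proj U V₁) (proj U V₂) := by
  have hn : ‖U‖ ≠ 0 := norm_ne_zero_iff.mpr hU
  refine ⟨proj U V, ?_, (inner ℝ V U / ‖U‖ ^ 2 + s) * ‖U‖, ?_⟩
  · rw [← proj_image_triangle]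
    exact ⟨V, hV, rfl⟩
  · rw [smul_smul, mul_assoc, mul_inv_cancel₀ hn, mul_one, add_smul]
    simp only [proj]
    abel

theorem gram_proj_sub (U V₀ V₁ V₂ : E3) (hU : U ≠ 0) :
    gram (proj U V₁ - proj U V₀) (proj U V₂ - proj U V₀) =
      triple (V₁ - V₀) (V₂ - V₀) U ^ 2 / ‖U‖ ^ 2 := by
  have e1 : proj U V₁ - proj U V₀ = proj U (V₁ - V₀) := by
    rw [← projL_apply, ← projL_apply, ← projL_apply, map_sub]
  have e2 : proj U V₂ - proj U V₀ = proj U (V₂ - V₀) := by
    rw [← projL_apply, ← projL_apply, ← projL_apply, map_sub]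
  rw [e1, e2, gram_proj _ _ _ hU]

/-! ### the symmetry `Θ` of the tetrahedron -/

/-- Linear part of `Θ`. -/
noncomputable def thetaL (v : E3) : E3 := !₂[v 1, v 0, -v 2]

/-- The isometry `(x, y, z) ↦ (y, x, √2 - z)`. -/
noncomputable def Theta (v : E3) : E3 := !₂[v 1, v 0, Real.sqrt 2 - v 2]

theorem ext3 {a b : E3} (h0 : a 0 = b 0) (h1 : a 1 = b 1) (h2 : a 2 = b 2) : a = b := by
  ext i; fin_cases i <;> assumption

theorem Theta_Theta (v : E3) : Theta (Theta v) = v := by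
  apply ext3 <;> simp [Theta]

theorem Theta_add_smul (V U : E3) (s : ℝ) : Theta (V + s • U) = Theta V + s • thetaL U := by
  apply ext3 <;> simp [Theta, thetaL] <;> ring

theorem Theta_sub (a b : E3) : Theta a - Theta b = thetaL (a - b) := by
  apply ext3 <;> simp [Theta, thetaL] <;> ring

theorem triple_thetaL (a b u : E3) : triple (thetaL a) (thetaL b) (thetaL u) = triple a b u := by
  simp [triple, thetaL]
  ring

theorem norm_thetaL (u : E3) : ‖thetaL u‖ = ‖u‖ := by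
  have h : ‖thetaL u‖ ^ 2 = ‖u‖ ^ 2 := by
    rw [norm_sq_coord, norm_sq_coord]
    simp [thetaL]
    ring
  have := abs_eq_abs.mpr (sq_eq_sq_iff_eq_or_eq_neg.mp h)
  rwa [abs_of_nonneg (norm_nonneg _), abs_of_nonneg (norm_nonneg _)] at this

theorem thetaL_ne_zero (u : E3) (hu : u ≠ 0) : thetaL u ≠ 0 := by
  rw [← norm_ne_zero_iff, norm_thetaL]
  exact norm_ne_zero_iff.mpr hu

theorem Theta_mem_triangle (V₀ V₁ V₂ V : E3) (hV : V ∈ convexHull ℝ {V₀, V₁, V₂}) :
    Theta V ∈ convexHull ℝ {Theta V₀, Theta V₁, Theta V₂} := by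
  rw [convexHull_triple_eq] at hV ⊢
  obtain ⟨s, t, hs, ht, hst, rfl⟩ := hV
  refine ⟨s, t, hs, ht, hst, ?_⟩
  apply ext3 <;> simp [Theta] <;> ring

/-! ### model coordinates -/

/-- The point with model coordinates `(x, y, s)`, `s = z / √2`. -/
noncomputable def pt (x y s : ℝ) : E3 := !₂[x, y, Real.sqrt 2 * s]

theorem pt_add (x y s x' y' s' : ℝ) : pt x y s + pt x' y' s' = pt (x + x') (y + y') (s + s') := by
  apply ext3 <;> simp [pt] <;> ring

theorem pt_sub (x y s x' y' s' : ℝ) : pt x y s - pt x' y' s' = pt (x - x') (y - y') (s - s') := by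
  apply ext3 <;> simp [pt] <;> ring

theorem pt_smul (a x y s : ℝ) : a • pt x y s = pt (a * x) (a * y) (a * s) := by
  apply ext3 <;> simp [pt] <;> ring

theorem Theta_pt (x y s : ℝ) : Theta (pt x y s) = pt y x (1 - s) := by
  apply ext3 <;> simp [Theta, pt] <;> ring

theorem eq_pt (v : E3) : v = pt (v 0) (v 1) (v 2 / Real.sqrt 2) := by
  have h2 : Real.sqrt 2 ≠ 0 := by positivity
  apply ext3 <;> simp [pt]
  field_simp

/-- Axis of the sector with tag `c`. -/
noncomputable def axisU (lam c : ℝ) : E3 := pt 1 (lam * Af c) (lam * c / 2)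

/-- Oblique point with sector coordinates `(ξ, ζ)` relative to the tag `c`. -/
noncomputable def obl (c ξ ζ : ℝ) : E3 := pt 0 (ξ * c + ζ) (ξ / 2)

theorem axisU_ne_zero (lam c : ℝ) : axisU lam c ≠ 0 := by
  intro h
  have : (axisU lam c) 0 = (0 : E3) 0 := by rw [h]
  simp [axisU, pt] at this

theorem norm_axisU_sq (lam c : ℝ) :
    ‖axisU lam c‖ ^ 2 = 1 + lam ^ 2 * (Af c ^ 2 + c ^ 2 / 2) := by
  rw [norm_sq_coord]
  simp only [axisU, pt]
  have h2 : Real.sqrt 2 ^ 2 = 2 := Real.sq_sqrt (by norm_num)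
  simp
  ring_nf
  rw [h2]
  ring

theorem triple_obl (lam c ξ₀ W d : ℝ) :
    triple (obl c W d - obl c ξ₀ 0) (obl c W (-d) - obl c ξ₀ 0) (axisU lam c) =
      Real.sqrt 2 * d * (W - ξ₀) := by
  simp only [obl, axisU, pt_sub, triple, pt]
  simp
  ring

/-- Membership of an oblique point in the sector triangle. -/
theorem obl_mem_triangle (c ξ₀ W h ξ ζ : ℝ) (hh : 0 < h) (hH : 0 < W - ξ₀) (hξ : ξ ≤ W)
    (hζ : |ζ| ≤ h * (ξ - ξ₀)) :
    obl c ξ ζ ∈ convexHull ℝ {obl c ξ₀ 0, obl c W (h * (W - ξ₀)), obl c W (-(h * (W - ξ₀)))} := by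
  rw [convexHull_triple_eq]
  obtain ⟨hζ1, hζ2⟩ := abs_le.mp hζ
  set H := W - ξ₀ with hHdef
  have hHne : H ≠ 0 := ne_of_gt hH
  have hhne : h ≠ 0 := ne_of_gt hh
  refine ⟨((ξ - ξ₀) / H + ζ / (h * H)) / 2, ((ξ - ξ₀) / H - ζ / (h * H)) / 2, ?_, ?_, ?_, ?_⟩
  · have : 0 ≤ (ξ - ξ₀) / H + ζ / (h * H) := by
      have e : (ξ - ξ₀) / H + ζ / (h * H) = (h * (ξ - ξ₀) + ζ) / (h * H) := by field_simp
      rw [e]
      apply div_nonneg (by linarith) (by positivity)
    linarith
  · have : 0 ≤ (ξ - ξ₀) / H - ζ / (h * H) := by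
      have e : (ξ - ξ₀) / H - ζ / (h * H) = (h * (ξ - ξ₀) - ζ) / (h * H) := by field_simp
      rw [e]
      apply div_nonneg (by linarith) (by positivity)
    linarith
  · have e : ((ξ - ξ₀) / H + ζ / (h * H)) / 2 + ((ξ - ξ₀) / H - ζ / (h * H)) / 2
        = (ξ - ξ₀) / H := by ring
    rw [e, div_le_one hH]
    linarith
  · simp only [obl, pt_sub, pt_smul, pt_add]
    congr 1
    · ring
    · field_simp
      ring
    · field_simp
      ring

end Crest.Agent.Helper1.TetraCover
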