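import Mathlib
import Crest.Agent.Helper1.TetraCoverAlg

/-!
# Row 211 (helper1): the explicit cylinder cover of the tetrahedron — the area sum

`cover_sum_bound`: the total (normalised) base area of the sector cylinders is at most
`1/2 - lam²/960 + lam⁴/40 + 4 lam / N`.
-/

set_option autoImplicit false

namespace Crest.Agent.Helper1.TetraCover

/-- `1/√(1+u) ≤ 1 - u/2 + 3u²/8` for `0 ≤ u ≤ 1`. -/
theorem inv_sqrt_le (u : ℝ) (hu0 : 0 ≤ u) (hu1 : u ≤ 1) :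
    1 / Real.sqrt (1 + u) ≤ 1 - u / 2 + 3 * u ^ 2 / 8 := by
  have hq : 0 < 1 - u / 2 + 3 * u ^ 2 / 8 := by nlinarith [sq_nonneg u]
  have hs : 0 < Real.sqrt (1 + u) := Real.sqrt_pos.mpr (by linarith)
  rw [div_le_iff₀ hs]
  have key : 1 ≤ (1 - u / 2 + 3 * u ^ 2 / 8) ^ 2 * (1 + u) := by
    have e : (1 - u / 2 + 3 * u ^ 2 / 8) ^ 2 * (1 + u) =
        1 + u ^ 3 * (5 / 8 - 15 * u / 64 + 9 * u ^ 2 / 64) := by ring
    rw [e]
    have h1 : 0 ≤ u ^ 3 := by positivity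
    have h2 : 0 ≤ 5 / 8 - 15 * u / 64 + 9 * u ^ 2 / 64 := by nlinarith [sq_nonneg u]
    nlinarith [mul_nonneg h1 h2]
  have h3 : Real.sqrt ((1 - u / 2 + 3 * u ^ 2 / 8) ^ 2 * (1 + u)) =
      (1 - u / 2 + 3 * u ^ 2 / 8) * Real.sqrt (1 + u) := by
    rw [Real.sqrt_mul (sq_nonneg _), Real.sqrt_sq hq.le]
  rw [← h3]
  calc (1 : ℝ) = Real.sqrt 1 := Real.sqrt_one.symm
    _ ≤ Real.sqrt ((1 - u / 2 + 3 * u ^ 2 / 8) ^ 2 * (1 + u)) := Real.sqrt_le_sqrt key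

/-- Polynomial part of the pointwise bound. -/
theorem poly_part (L r u e : ℝ) (hL0 : 0 ≤ L) (hr0 : 0 ≤ r) (hr1 : r ≤ L / 15)
    (hL1 : L ≤ 1 / 100) (hu0 : 0 ≤ u) (hu1 : u ≤ 3 / 16 * L) (he0 : 0 ≤ e) (he1 : e ≤ 1 / 5) :
    (1 + r + e) ^ 2 / 2 * (1 - u / 2 + 3 * u ^ 2 / 8) ≤
      1 / 2 + r - u / 4 + 3 / 2 * e + L ^ 2 / 50 := by
  have hr2 : r ≤ 1 / 1500 := by linarith
  have husq : u ^ 2 ≤ 9 / 256 * L ^ 2 := by
    have : u ^ 2 ≤ (3 / 16 * L) ^ 2 := pow_le_pow_left₀ hu0 hu1 2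
    have e : (3 / 16 * L) ^ 2 = 9 / 256 * L ^ 2 := by ring
    linarith
  have hrsq : r ^ 2 ≤ L ^ 2 / 225 := by
    have : r ^ 2 ≤ (L / 15) ^ 2 := pow_le_pow_left₀ hr0 hr1 2
    have e : (L / 15) ^ 2 = L ^ 2 / 225 := by ring
    linarith
  have hesq : e ^ 2 ≤ e / 5 := by nlinarith
  have ha0 : 0 ≤ r + e := by linarith
  have ha1 : r + e ≤ 1 / 4 := by linarith
  have hsq1 : 1 ≤ (1 + r + e) ^ 2 := by nlinarith
  have hsq2 : (1 + r + e) ^ 2 ≤ 25 / 16 := by nlinarith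
  have p1 : (1 + r + e) ^ 2 / 2 * (1 - u / 2 + 3 * u ^ 2 / 8) =
      (1 + r + e) ^ 2 / 2 - (1 + r + e) ^ 2 * (u / 4) + (1 + r + e) ^ 2 * (3 * u ^ 2 / 16) := by
    ring
  have p2 : u / 4 ≤ (1 + r + e) ^ 2 * (u / 4) := by
    have : 1 * (u / 4) ≤ (1 + r + e) ^ 2 * (u / 4) :=
      mul_le_mul_of_nonneg_right hsq1 (by positivity)
    linarith
  have p3 : (1 + r + e) ^ 2 * (3 * u ^ 2 / 16) ≤ L ^ 2 / 90 := by
    have h : (1 + r + e) ^ 2 * (3 * u ^ 2 / 16) ≤ 25 / 16 * (3 * u ^ 2 / 16) :=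
      mul_le_mul_of_nonneg_right hsq2 (by positivity)
    have hL2 : 0 ≤ L ^ 2 := sq_nonneg L
    linarith
  have p4 : (1 + r + e) ^ 2 / 2 ≤ 1 / 2 + r + e + r ^ 2 + e ^ 2 := by
    nlinarith [sq_nonneg (r - e)]
  have hL2 : 0 ≤ L ^ 2 := sq_nonneg L
  rw [p1]
  linarith

/-- Pointwise bound of one summand. -/
theorem summand_le (lam c e : ℝ) (hl0 : 0 ≤ lam) (hl1 : lam ≤ 1 / 10) (hc : |c| ≤ 1 / 2)
    (he0 : 0 ≤ e) (he1 : e ≤ 1 / 5) :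
    (Rf lam c + e) ^ 2 / (2 * Real.sqrt (1 + lam ^ 2 * (Af c ^ 2 + c ^ 2 / 2))) ≤
      1 / 2 - lam ^ 2 / 256 + lam ^ 2 * (-(c ^ 2) / 32 + 7 * c ^ 4 / 16) + 3 / 2 * e +
        9 / 400 * lam ^ 4 := by
  have hc2 : c ^ 2 ≤ 1 / 4 := by
    have := sq_le_sq' (abs_le.mp hc).1 (abs_le.mp hc).2
    norm_num at this; linarith
  have hc20 : 0 ≤ c ^ 2 := sq_nonneg c
  have hc4 : c ^ 4 ≤ 1 / 16 := by
    have : c ^ 4 = c ^ 2 * c ^ 2 := by ring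
    rw [this]; nlinarith
  have hc40 : 0 ≤ c ^ 4 := by positivity
  have hlam2 : lam ^ 2 ≤ 1 / 100 := by nlinarith
  have hlam20 : 0 ≤ lam ^ 2 := sq_nonneg lam
  have hlam4 : lam ^ 4 = lam ^ 2 * lam ^ 2 := by ring
  have hlam40 : 0 ≤ lam ^ 4 := by positivity
  have hr0 : 0 ≤ rf lam c := rf_nonneg lam c
  have hr1 : rf lam c ≤ lam ^ 2 / 15 := by
    unfold rf
    have h1 : lam ^ 2 * (c ^ 2 / 8 + c ^ 4 / 2) ≤ lam ^ 2 * (1 / 16) :=
      mul_le_mul_of_nonneg_left (by linarith) hlam20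
    have h2 : lam ^ 4 * c ^ 4 / 25 ≤ lam ^ 2 * (1 / 40000) := by
      rw [hlam4]
      have : lam ^ 2 * lam ^ 2 * c ^ 4 ≤ lam ^ 2 * (1 / 100) * (1 / 16) :=
        mul_le_mul (mul_le_mul_of_nonneg_left hlam2 hlam20) hc4 hc40 (by positivity)
      linarith
    linarith
  have hA0 : 0 ≤ Af c := by unfold Af; positivity
  have hA1 : Af c ≤ 1 / 4 := by unfold Af; linarith
  have hA2 : Af c ^ 2 ≤ 1 / 16 := by nlinarith
  have hu0 : 0 ≤ lam ^ 2 * (Af c ^ 2 + c ^ 2 / 2) := by positivity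
  have hu1 : lam ^ 2 * (Af c ^ 2 + c ^ 2 / 2) ≤ 3 / 16 * lam ^ 2 := by
    have : lam ^ 2 * (Af c ^ 2 + c ^ 2 / 2) ≤ lam ^ 2 * (3 / 16) :=
      mul_le_mul_of_nonneg_left (by linarith) hlam20
    linarith
  have hu2 : lam ^ 2 * (Af c ^ 2 + c ^ 2 / 2) ≤ 1 := by linarith
  have hq := inv_sqrt_le _ hu0 hu2
  have hpoly := poly_part (lam ^ 2) (rf lam c) (lam ^ 2 * (Af c ^ 2 + c ^ 2 / 2)) e hlam20 hr0 hr1
    hlam2 hu0 hu1 he0 he1
  have hX : 0 ≤ (Rf lam c + e) ^ 2 / 2 := by positivity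
  have h1 : (Rf lam c + e) ^ 2 / (2 * Real.sqrt (1 + lam ^ 2 * (Af c ^ 2 + c ^ 2 / 2))) =
      (Rf lam c + e) ^ 2 / 2 * (1 / Real.sqrt (1 + lam ^ 2 * (Af c ^ 2 + c ^ 2 / 2))) := by
    rw [div_mul_div_comm, mul_one]
  have h2 := mul_le_mul_of_nonneg_left hq hX
  have hRa : Rf lam c + e = 1 + rf lam c + e := by unfold Rf; ring
  have p5 : rf lam c - lam ^ 2 * (Af c ^ 2 + c ^ 2 / 2) / 4 =
      lam ^ 2 * (-(c ^ 2) / 32 + 7 * c ^ 4 / 16 - 1 / 256) + lam ^ 4 * c ^ 4 / 25 := by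
    unfold rf Af; ring
  have p6 : lam ^ 4 * c ^ 4 / 25 ≤ lam ^ 4 / 400 := by
    have : lam ^ 4 * c ^ 4 ≤ lam ^ 4 * (1 / 16) := mul_le_mul_of_nonneg_left hc4 hlam40
    linarith
  have p7 : (lam ^ 2) ^ 2 = lam ^ 4 := by ring
  rw [h1]
  rw [hRa] at h2 ⊢
  rw [p7] at hpoly
  linarith

/-- The explicit area sum bound. -/
theorem cover_sum_bound (lam : ℝ) (N : ℕ) (hl0 : 0 < lam) (hl1 : lam ≤ 1 / 10) (hN : 1 ≤ N) :
    ∑ i ∈ Finset.range N, (Rf lam (cmid N i) + 2 * lam / N) ^ 2 /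
        (2 * N * Real.sqrt (1 + lam ^ 2 * (Af (cmid N i) ^ 2 + cmid N i ^ 2 / 2)))
      ≤ 1 / 2 - lam ^ 2 / 960 + lam ^ 4 / 40 + 4 * lam / N := by
  have hNr : (1 : ℝ) ≤ N := by exact_mod_cast hN
  have hN0 : (0 : ℝ) < N := by linarith
  set e : ℝ := 2 * lam / N with he
  have he0 : 0 ≤ e := by rw [he]; positivity
  have he1 : e ≤ 1 / 5 := by
    rw [he, div_le_iff₀ hN0]
    nlinarith
  set K : ℝ := 1 / 2 - lam ^ 2 / 256 + 3 / 2 * e + 9 / 400 * lam ^ 4 with hK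
  -- telescoping potential
  set Φ : ℕ → ℝ := fun i => lam ^ 2 * (-(1 / 32) * ((-1 / 2 + (i : ℝ) / N) ^ 3 / 3) +
    7 / 16 * ((-1 / 2 + (i : ℝ) / N) ^ 5 / 5)) with hΦ
  set κ : ℝ := K / N + lam ^ 2 / (384 * (N : ℝ) ^ 3) with hκ
  have hpt : ∀ i ∈ Finset.range N, (Rf lam (cmid N i) + e) ^ 2 /
        (2 * N * Real.sqrt (1 + lam ^ 2 * (Af (cmid N i) ^ 2 + cmid N i ^ 2 / 2)))
      ≤ (Φ (i + 1) - Φ i) + κ := by
    intro i hi
    have hi' : i < N := Finset.mem_range.mp hi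
    have hcabs := abs_cmid_le N i hi'
    have hs := summand_le lam (cmid N i) e hl0.le hl1 hcabs he0 he1
    set c := cmid N i with hc
    set Q : ℝ := Real.sqrt (1 + lam ^ 2 * (Af c ^ 2 + c ^ 2 / 2)) with hQ
    have hQpos : 0 < Q := by
      rw [hQ]; apply Real.sqrt_pos.mpr
      have : 0 ≤ lam ^ 2 * (Af c ^ 2 + c ^ 2 / 2) := by positivity
      linarith
    have e1 : (Rf lam c + e) ^ 2 / (2 * N * Q) = (Rf lam c + e) ^ 2 / (2 * Q) / N := by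
      field_simp
    rw [e1]
    have h1 : (Rf lam c + e) ^ 2 / (2 * Q) / N ≤
        (1 / 2 - lam ^ 2 / 256 + lam ^ 2 * (-(c ^ 2) / 32 + 7 * c ^ 4 / 16) + 3 / 2 * e +
          9 / 400 * lam ^ 4) / N := div_le_div_of_nonneg_right hs hN0.le
    -- cell identity
    set h : ℝ := 1 / (2 * N) with hh
    have hh0 : 0 < h := by rw [hh]; positivity
    have ht0 : (-1 / 2 + (i : ℝ) / N) = c - h := by
      rw [hc, hh]; unfold cmid; field_simp; ring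
    have ht1 : (-1 / 2 + ((i + 1 : ℕ) : ℝ) / N) = c + h := by
      rw [hc, hh]; unfold cmid; push_cast; field_simp; ring
    have hinv : 1 / (N : ℝ) = 2 * h := by rw [hh]; field_simp
    have hΦd : Φ (i + 1) - Φ i = lam ^ 2 * (-(1 / 32) * (2 * h * c ^ 2 + 2 * h ^ 3 / 3) +
        7 / 16 * (2 * h * c ^ 4 + 4 * h ^ 3 * c ^ 2 + 2 * h ^ 5 / 5)) := by
      simp only [hΦ]
      rw [ht0, ht1]; ring
    have hκ' : κ = K * (2 * h) + lam ^ 2 * (h ^ 3 / 48) := by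
      rw [hκ, hh]; field_simp; ring
    have hrhs : (1 / 2 - lam ^ 2 / 256 + lam ^ 2 * (-(c ^ 2) / 32 + 7 * c ^ 4 / 16) + 3 / 2 * e +
          9 / 400 * lam ^ 4) / N = K * (2 * h) + lam ^ 2 * (-(c ^ 2) / 32 + 7 * c ^ 4 / 16) *
          (2 * h) := by
      rw [hK, div_eq_mul_one_div, hinv]; ring
    rw [hrhs] at h1
    rw [hΦd, hκ']
    have hpos : 0 ≤ lam ^ 2 * (7 / 16 * (4 * h ^ 3 * c ^ 2 + 2 * h ^ 5 / 5)) := by positivity
    nlinarith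
  calc ∑ i ∈ Finset.range N, (Rf lam (cmid N i) + e) ^ 2 /
        (2 * N * Real.sqrt (1 + lam ^ 2 * (Af (cmid N i) ^ 2 + cmid N i ^ 2 / 2)))
      ≤ ∑ i ∈ Finset.range N, ((Φ (i + 1) - Φ i) + κ) := Finset.sum_le_sum hpt
    _ = (Φ N - Φ 0) + N * κ := by
        rw [Finset.sum_add_distrib, Finset.sum_range_sub, Finset.sum_const, Finset.card_range,
          nsmul_eq_mul]
    _ ≤ 1 / 2 - lam ^ 2 / 960 + lam ^ 4 / 40 + 4 * lam / N := by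
        have hΦN : Φ N = lam ^ 2 * (-(1 / 32) * ((1 / 2 : ℝ) ^ 3 / 3) + 7 / 16 * ((1 / 2) ^ 5 / 5)) := by
          simp only [hΦ]
          rw [div_self (ne_of_gt hN0)]; norm_num
        have hΦ0 : Φ 0 = lam ^ 2 * (-(1 / 32) * ((-1 / 2 : ℝ) ^ 3 / 3) +
            7 / 16 * ((-1 / 2) ^ 5 / 5)) := by
          simp only [hΦ]; norm_num
        have hNκ : (N : ℝ) * κ = K + lam ^ 2 / (384 * (N : ℝ) ^ 2) := by
          rw [hκ]; field_simp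
        rw [hΦN, hΦ0, hNκ, hK]
        have h1 : lam ^ 2 / (384 * (N : ℝ) ^ 2) ≤ lam / N := by
          rw [div_le_div_iff₀ (by positivity) hN0]
          have : lam ^ 2 * N ≤ lam * (384 * (N : ℝ) ^ 2) := by
            have hl : lam ^ 2 ≤ lam := by nlinarith
            have hNN : (N : ℝ) ≤ 384 * (N : ℝ) ^ 2 := by nlinarith
            calc lam ^ 2 * N ≤ lam * N := mul_le_mul_of_nonneg_right hl hN0.le
              _ ≤ lam * (384 * (N : ℝ) ^ 2) := mul_le_mul_of_nonneg_left hNN hl0.le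
          linarith
        have h2 : 3 / 2 * e = 3 * lam / N := by rw [he]; ring
        have h3 : 4 * lam / N = 3 * lam / N + lam / N := by ring
        have hl4 : 0 ≤ lam ^ 4 := by positivity
        rw [h2, h3]
        nlinarith

end Crest.Agent.Helper1.TetraCover
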