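import Mathlib
import Crest.Agent.Helper9.Proj
import Crest.Agent.Helper1.TetraCoverAlg
import Crest.Agent.Helper1.TetraCoverGeom
import Crest.Agent.Helper1.TetraCoverSum

/-!
# Row 211 (helper1): the explicit cylinder cover of the tetrahedron — assembly

`exists_cover`: the standard regular tetrahedron is covered by `8·10⁶` cylinders with nondegenerate
triangular bases perpendicular to their unit axes, of total base area `≤ √2 (1/2 - 6·10⁻¹⁰)`.
-/

set_option autoImplicit false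

open Crest.Agent.Helper9.Area

namespace Crest.Agent.Helper1.TetraCover

/-- Apex coordinate of the sector triangles. -/
noncomputable def xi0 (lam : ℝ) (N : ℕ) : ℝ := -(|lam| / N)

/-- Far-side coordinate of the `i`-th sector triangle. -/
noncomputable def Wf (lam : ℝ) (N i : ℕ) : ℝ := Rf lam (cmid N i) + |lam| / N

/-- Oblique vertices of the `i`-th sector triangle. -/
noncomputable def V0 (lam : ℝ) (N i : ℕ) : E3 := obl (cmid N i) (xi0 lam N) 0

/-- Oblique vertices of the `i`-th sector triangle. -/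
noncomputable def V1 (lam : ℝ) (N i : ℕ) : E3 :=
  obl (cmid N i) (Wf lam N i) (1 / (2 * N) * (Wf lam N i - xi0 lam N))

/-- Oblique vertices of the `i`-th sector triangle. -/
noncomputable def V2 (lam : ℝ) (N i : ℕ) : E3 :=
  obl (cmid N i) (Wf lam N i) (-(1 / (2 * N) * (Wf lam N i - xi0 lam N)))

theorem Wf_sub_xi0 (lam : ℝ) (N i : ℕ) :
    Wf lam N i - xi0 lam N = Rf lam (cmid N i) + 2 * |lam| / N := by
  unfold Wf xi0; ring

theorem Wf_sub_xi0_pos (lam : ℝ) (N i : ℕ) : 0 < Wf lam N i - xi0 lam N := by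
  rw [Wf_sub_xi0]
  have h1 := one_le_Rf lam (cmid N i)
  have h2 : 0 ≤ 2 * |lam| / N := by positivity
  linarith

/-- A point of the lower sweep (parameter `lam`) lies over one of the sector triangles. -/
theorem lower_mem (lam : ℝ) (N : ℕ) (hN : 0 < N) (hl : |lam| ≤ 1) (x y s t ρ : ℝ)
    (hx : |x| ≤ 1) (ht : |t| ≤ 1 / 2) (hρ0 : 0 ≤ ρ) (hρ : ρ ≤ Rf lam t)
    (h1 : y = ρ * t + x * lam * Af t) (h2 : s = ρ / 2 + x * lam * t / 2) :
    ∃ i, i < N ∧ ∃ V ∈ convexHull ℝ {V0 lam N i, V1 lam N i, V2 lam N i},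
      pt x y s = V + x • axisU lam (cmid N i) := by
  have hNr : (0 : ℝ) < N := by exact_mod_cast hN
  obtain ⟨i, hi, hτ⟩ := exists_sector N hN t ht
  refine ⟨i, hi, ?_⟩
  set c := cmid N i with hc
  have hcabs := abs_cmid_le N i hi
  obtain ⟨hA, hB⟩ := sector_alg lam x t ρ c (1 / (2 * N)) hl hx hτ ht hcabs hρ0 hρ
  set ξ := ρ + x * lam * (t - c) with hξ
  set ζ := (t - c) * (ρ + x * lam * (t - c) / 2) with hζ
  refine ⟨obl c ξ ζ, ?_, ?_⟩
  · unfold V0 V1 V2
    rw [← hc]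
    apply obl_mem_triangle c (xi0 lam N) (Wf lam N i) (1 / (2 * N)) ξ ζ (by positivity)
      (Wf_sub_xi0_pos lam N i)
    · have : Wf lam N i = Rf lam c + 2 * |lam| * (1 / (2 * N)) := by
        unfold Wf; rw [← hc]; field_simp
      rw [this]; exact hA
    · have : 1 / (2 * (N : ℝ)) * (ξ - xi0 lam N) =
          1 / (2 * N) * (ξ + 2 * |lam| * (1 / (2 * N))) := by
        unfold xi0; field_simp; ring
      rw [this]; exact hB
  · simp only [obl, axisU, pt_smul, pt_add]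
    congr 1
    · ring
    · rw [h1, hξ, hζ]; unfold Af; ring
    · rw [h2, hξ]; ring

/-! ### coordinates of the tetrahedron -/

/-- The standard tetrahedron (the literal of the statements). -/
noncomputable abbrev K0 : Set E3 :=
  convexHull ℝ {!₂[1, 0, 0], !₂[-1, 0, 0], !₂[0, 1, Real.sqrt 2], !₂[0, -1, Real.sqrt 2]}

theorem K0_coords (P : E3) (hP : P ∈ K0) :
    ∃ x y s : ℝ, P = pt x y s ∧ |x| ≤ 1 - s ∧ |y| ≤ s := by
  have h2 : (0 : ℝ) < Real.sqrt 2 := Real.sqrt_pos.mpr (by norm_num)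
  have h2sq : Real.sqrt 2 * Real.sqrt 2 = 2 := Real.mul_self_sqrt (by norm_num)
  set S : Set E3 := {v | v 2 ≤ Real.sqrt 2 * (1 - v 0) ∧ v 2 ≤ Real.sqrt 2 * (1 + v 0) ∧
    Real.sqrt 2 * v 1 ≤ v 2 ∧ -(Real.sqrt 2 * v 1) ≤ v 2} with hS
  have hconv : Convex ℝ S := by
    intro a ha b hb α β hα hβ hαβ
    obtain ⟨a1, a2, a3, a4⟩ := ha
    obtain ⟨b1, b2, b3, b4⟩ := hb
    simp only [hS, Set.mem_setOf_eq, PiLp.add_apply, PiLp.smul_apply, smul_eq_mul]
    have hβ' : β = 1 - α := by linarith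
    subst hβ'
    refine ⟨?_, ?_, ?_, ?_⟩
    · have e1 := mul_le_mul_of_nonneg_left a1 hα
      have e2 := mul_le_mul_of_nonneg_left b1 hβ
      nlinarith
    · have e1 := mul_le_mul_of_nonneg_left a2 hα
      have e2 := mul_le_mul_of_nonneg_left b2 hβ
      nlinarith
    · have e1 := mul_le_mul_of_nonneg_left a3 hα
      have e2 := mul_le_mul_of_nonneg_left b3 hβ
      nlinarith
    · have e1 := mul_le_mul_of_nonneg_left a4 hα
      have e2 := mul_le_mul_of_nonneg_left b4 hβ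
      nlinarith
  have hsub : ({!₂[1, 0, 0], !₂[-1, 0, 0], !₂[0, 1, Real.sqrt 2], !₂[0, -1, Real.sqrt 2]} :
      Set E3) ⊆ S := by
    intro v hv
    simp only [Set.mem_insert_iff, Set.mem_singleton_iff] at hv
    rcases hv with rfl | rfl | rfl | rfl <;> simp [hS] <;> nlinarith
  have hPS : P ∈ S := convexHull_min hsub hconv hP
  obtain ⟨p1, p2, p3, p4⟩ := hPS
  refine ⟨P 0, P 1, P 2 / Real.sqrt 2, eq_pt P, ?_, ?_⟩
  · rw [abs_le]
    constructor
    · have : P 2 / Real.sqrt 2 ≤ 1 + P 0 := by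
        rw [div_le_iff₀ h2]; linarith
      linarith
    · have : P 2 / Real.sqrt 2 ≤ 1 - P 0 := by
        rw [div_le_iff₀ h2]; linarith
      linarith
  · rw [abs_le]
    constructor
    · have : -(P 1) ≤ P 2 / Real.sqrt 2 := by
        rw [le_div_iff₀ h2]; linarith
      linarith
    · rw [le_div_iff₀ h2]; linarith

/-! ### the two families -/

/-- Axes of the two families (`inl`: lower, `inr`: upper = `Θ`-image of the lower family for
`-lam`). -/
noncomputable def UU (lam : ℝ) (N : ℕ) : Fin N ⊕ Fin N → E3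
  | Sum.inl i => axisU lam (cmid N i)
  | Sum.inr i => thetaL (axisU (-lam) (cmid N i))

/-- Oblique vertices of the two families. -/
noncomputable def VV0 (lam : ℝ) (N : ℕ) : Fin N ⊕ Fin N → E3
  | Sum.inl i => V0 lam N i
  | Sum.inr i => Theta (V0 (-lam) N i)

/-- Oblique vertices of the two families. -/
noncomputable def VV1 (lam : ℝ) (N : ℕ) : Fin N ⊕ Fin N → E3
  | Sum.inl i => V1 lam N i
  | Sum.inr i => Theta (V1 (-lam) N i)

/-- Oblique vertices of the two families. -/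
noncomputable def VV2 (lam : ℝ) (N : ℕ) : Fin N ⊕ Fin N → E3
  | Sum.inl i => V2 lam N i
  | Sum.inr i => Theta (V2 (-lam) N i)

/-- Index of the tag. -/
def idx (N : ℕ) : Fin N ⊕ Fin N → ℕ
  | Sum.inl i => i
  | Sum.inr i => i

theorem UU_ne_zero (lam : ℝ) (N : ℕ) (x : Fin N ⊕ Fin N) : UU lam N x ≠ 0 := by
  rcases x with i | i
  · exact axisU_ne_zero _ _
  · exact thetaL_ne_zero _ (axisU_ne_zero _ _)

theorem norm_UU_sq (lam : ℝ) (N : ℕ) (x : Fin N ⊕ Fin N) :
    ‖UU lam N x‖ ^ 2 = 1 + lam ^ 2 * (Af (cmid N (idx N x)) ^ 2 + cmid N (idx N x) ^ 2 / 2) := by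
  rcases x with i | i
  · exact norm_axisU_sq _ _
  · simp only [UU, idx]
    rw [norm_thetaL, norm_axisU_sq]
    ring

theorem triple_V (lam : ℝ) (N i : ℕ) :
    triple (V1 lam N i - V0 lam N i) (V2 lam N i - V0 lam N i) (axisU lam (cmid N i)) =
      Real.sqrt 2 * (1 / (2 * N)) * (Rf lam (cmid N i) + 2 * |lam| / N) ^ 2 := by
  unfold V0 V1 V2
  rw [triple_obl, Wf_sub_xi0]
  ring

theorem triple_VV (lam : ℝ) (N : ℕ) (x : Fin N ⊕ Fin N) :
    triple (VV1 lam N x - VV0 lam N x) (VV2 lam N x - VV0 lam N x) (UU lam N x) =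
      Real.sqrt 2 * (1 / (2 * N)) * (Rf lam (cmid N (idx N x)) + 2 * |lam| / N) ^ 2 := by
  rcases x with i | i
  · exact triple_V lam N i
  · simp only [UU, VV0, VV1, VV2, idx]
    rw [Theta_sub, Theta_sub, triple_thetaL, triple_V, Rf_neg, abs_neg]

/-- Height of the `i`-th sector triangle. -/
noncomputable def Hf (lam : ℝ) (N i : ℕ) : ℝ := Rf lam (cmid N i) + 2 * |lam| / N

theorem Hf_pos (lam : ℝ) (N i : ℕ) : 0 < Hf lam N i := by
  unfold Hf
  have h1 := one_le_Rf lam (cmid N i)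
  have h2 : 0 ≤ 2 * |lam| / N := by positivity
  linarith

/-- `1 + |w|²` for the tag `c_i`. -/
noncomputable def Qf (lam : ℝ) (N i : ℕ) : ℝ := 1 + lam ^ 2 * (Af (cmid N i) ^ 2 + cmid N i ^ 2 / 2)

theorem Qf_pos (lam : ℝ) (N i : ℕ) : 0 < Qf lam N i := by
  unfold Qf
  have : 0 ≤ lam ^ 2 * (Af (cmid N i) ^ 2 + cmid N i ^ 2 / 2) := by positivity
  linarith

theorem gram_VV (lam : ℝ) (N : ℕ) (x : Fin N ⊕ Fin N) :
    gram (proj (UU lam N x) (VV1 lam N x) - proj (UU lam N x) (VV0 lam N x))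
        (proj (UU lam N x) (VV2 lam N x) - proj (UU lam N x) (VV0 lam N x)) =
      (Real.sqrt 2 * (1 / (2 * N)) * Hf lam N (idx N x) ^ 2) ^ 2 / Qf lam N (idx N x) := by
  rw [gram_proj_sub _ _ _ _ (UU_ne_zero lam N x), triple_VV, norm_UU_sq]
  rfl

theorem gram_VV_pos (lam : ℝ) (N : ℕ) (hN : 0 < N) (x : Fin N ⊕ Fin N) :
    0 < gram (proj (UU lam N x) (VV1 lam N x) - proj (UU lam N x) (VV0 lam N x))
        (proj (UU lam N x) (VV2 lam N x) - proj (UU lam N x) (VV0 lam N x)) := by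
  rw [gram_VV]
  have hNr : (0 : ℝ) < N := by exact_mod_cast hN
  have h2 : (0 : ℝ) < Real.sqrt 2 := Real.sqrt_pos.mpr (by norm_num)
  have := Hf_pos lam N (idx N x)
  have := Qf_pos lam N (idx N x)
  positivity

theorem sqrt_gram_VV (lam : ℝ) (N : ℕ) (hN : 0 < N) (x : Fin N ⊕ Fin N) :
    Real.sqrt (gram (proj (UU lam N x) (VV1 lam N x) - proj (UU lam N x) (VV0 lam N x))
        (proj (UU lam N x) (VV2 lam N x) - proj (UU lam N x) (VV0 lam N x))) / 2 =
      Real.sqrt 2 / 2 * (Hf lam N (idx N x) ^ 2 / (2 * N * Real.sqrt (Qf lam N (idx N x)))) := by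
  rw [gram_VV]
  have hNr : (0 : ℝ) < N := by exact_mod_cast hN
  have h2 : (0 : ℝ) < Real.sqrt 2 := Real.sqrt_pos.mpr (by norm_num)
  have hH := Hf_pos lam N (idx N x)
  have hQ := Qf_pos lam N (idx N x)
  have hsQ : 0 < Real.sqrt (Qf lam N (idx N x)) := Real.sqrt_pos.mpr hQ
  rw [Real.sqrt_div (by positivity), Real.sqrt_sq (by positivity)]
  field_simp

/-- Coverage of the tetrahedron by the two families. -/
theorem cover_K0 (lam : ℝ) (N : ℕ) (hN : 0 < N) (hl : |lam| ≤ 1) (P : E3) (hP : P ∈ K0) :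
    ∃ x : Fin N ⊕ Fin N, P ∈ cylSet (‖UU lam N x‖⁻¹ • UU lam N x)
      (proj (UU lam N x) (VV0 lam N x)) (proj (UU lam N x) (VV1 lam N x))
      (proj (UU lam N x) (VV2 lam N x)) := by
  obtain ⟨x, y, s, rfl, hx, hy⟩ := K0_coords P hP
  have hs0 : 0 ≤ s := le_trans (abs_nonneg y) hy
  have hs1 : 0 ≤ 1 - s := le_trans (abs_nonneg x) hx
  rcases cover_alg lam x y s hl hx hy with ⟨t, ρ, ht, hρ0, hρ, h1, h2⟩ | ⟨t, ρ, ht, hρ0, hρ, h1, h2⟩
  · obtain ⟨i, hi, V, hV, hrep⟩ :=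
      lower_mem lam N hN hl x y s t ρ (by linarith) ht hρ0 hρ h1 h2
    refine ⟨Sum.inl ⟨i, hi⟩, ?_⟩
    rw [hrep]
    exact mem_cylSet_of _ _ _ _ _ (axisU_ne_zero _ _) hV x
  · have hl' : |-lam| ≤ 1 := by rwa [abs_neg]
    obtain ⟨i, hi, V, hV, hrep⟩ :=
      lower_mem (-lam) N hN hl' y x (1 - s) t ρ (by linarith) ht hρ0 hρ h1 h2
    refine ⟨Sum.inr ⟨i, hi⟩, ?_⟩
    have e : pt x y s = Theta V + y • thetaL (axisU (-lam) (cmid N i)) := by
      rw [← Theta_add_smul, ← hrep, Theta_pt]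
      congr 1
      ring
    rw [e]
    exact mem_cylSet_of _ _ _ _ _ (thetaL_ne_zero _ (axisU_ne_zero _ _))
      (Theta_mem_triangle _ _ _ _ hV) y

/-- The cover for general parameters, with the area sum as a hypothesis. -/
theorem exists_cover_aux (lam : ℝ) (N : ℕ) (hN : 0 < N) (hl : |lam| ≤ 1) (B : ℝ)
    (hsum : ∑ i ∈ Finset.range N, Hf lam N i ^ 2 / (2 * N * Real.sqrt (Qf lam N i)) ≤ B) :
    ∃ (u p q r : Fin (N + N) → E3), (∀ i, ‖u i‖ = 1) ∧
      (∀ i, inner ℝ (p i) (u i) = 0 ∧ inner ℝ (q i) (u i) = 0 ∧ inner ℝ (r i) (u i) = 0) ∧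
      (∀ i, 0 < gram (q i - p i) (r i - p i)) ∧
      K0 ⊆ ⋃ i, {x : E3 | ∃ b ∈ convexHull ℝ {p i, q i, r i}, ∃ t : ℝ, x = b + t • u i} ∧
      ∑ i, Real.sqrt (gram (q i - p i) (r i - p i)) / 2 ≤ Real.sqrt 2 * B := by
  set e := (finSumFinEquiv : Fin N ⊕ Fin N ≃ Fin (N + N)) with he
  refine ⟨fun j => ‖UU lam N (e.symm j)‖⁻¹ • UU lam N (e.symm j),
    fun j => proj (UU lam N (e.symm j)) (VV0 lam N (e.symm j)),
    fun j => proj (UU lam N (e.symm j)) (VV1 lam N (e.symm j)),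
    fun j => proj (UU lam N (e.symm j)) (VV2 lam N (e.symm j)), ?_, ?_, ?_, ?_, ?_⟩
  · intro j
    exact norm_unitize _ (UU_ne_zero lam N _)
  · intro j
    exact ⟨inner_proj_unitize _ _ (UU_ne_zero lam N _), inner_proj_unitize _ _ (UU_ne_zero lam N _),
      inner_proj_unitize _ _ (UU_ne_zero lam N _)⟩
  · intro j
    exact gram_VV_pos lam N hN _
  · intro P hP
    obtain ⟨x, hx⟩ := cover_K0 lam N hN hl P hP
    rw [Set.mem_iUnion]
    refine ⟨e x, ?_⟩
    simp only [Equiv.symm_apply_apply]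
    exact hx
  · have h1 : ∑ j : Fin (N + N),
        Real.sqrt (gram (proj (UU lam N (e.symm j)) (VV1 lam N (e.symm j)) -
          proj (UU lam N (e.symm j)) (VV0 lam N (e.symm j)))
          (proj (UU lam N (e.symm j)) (VV2 lam N (e.symm j)) -
          proj (UU lam N (e.symm j)) (VV0 lam N (e.symm j)))) / 2 =
        ∑ x : Fin N ⊕ Fin N, Real.sqrt 2 / 2 *
          (Hf lam N (idx N x) ^ 2 / (2 * N * Real.sqrt (Qf lam N (idx N x)))) := by
      rw [← Equiv.sum_comp e.symm]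
      apply Finset.sum_congr rfl
      intro j _
      exact sqrt_gram_VV lam N hN _
    rw [h1, Fintype.sum_sum_type]
    simp only [idx]
    rw [← Finset.mul_sum,
      Fin.sum_univ_eq_sum_range (fun i => Hf lam N i ^ 2 / (2 * N * Real.sqrt (Qf lam N i))) N]
    have h2 : (0 : ℝ) ≤ Real.sqrt 2 := Real.sqrt_nonneg 2
    nlinarith

/-- **The explicit cover** (package E of row 211): the standard regular tetrahedron is covered by
at most `15999999` cylinders with unit axes and nondegenerate triangular bases perpendicular to the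
axes, of total base area at most `√2 (1/2 - 6·10⁻¹⁰)`. -/
theorem exists_cover :
    ∃ (m : ℕ) (u p q r : Fin m → E3), m ≤ 15999999 ∧ (∀ i, ‖u i‖ = 1) ∧
      (∀ i, inner ℝ (p i) (u i) = 0 ∧ inner ℝ (q i) (u i) = 0 ∧ inner ℝ (r i) (u i) = 0) ∧
      (∀ i, 0 < gram (q i - p i) (r i - p i)) ∧
      K0 ⊆ ⋃ i, {x : E3 | ∃ b ∈ convexHull ℝ {p i, q i, r i}, ∃ t : ℝ, x = b + t • u i} ∧
      ∑ i, Real.sqrt (gram (q i - p i) (r i - p i)) / 2 ≤ Real.sqrt 2 * (1 / 2 - 6 / 10 ^ 10) := by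
  have hsum := cover_sum_bound (1 / 100) 4000000 (by norm_num) (by norm_num) (by norm_num)
  have habs : |(1 / 100 : ℝ)| = 1 / 100 := abs_of_pos (by norm_num)
  have hsum' : ∑ i ∈ Finset.range 4000000,
      Hf (1 / 100) 4000000 i ^ 2 / (2 * (4000000 : ℕ) * Real.sqrt (Qf (1 / 100) 4000000 i)) ≤
      1 / 2 - (1 / 100 : ℝ) ^ 2 / 960 + (1 / 100) ^ 4 / 40 + 4 * (1 / 100) / (4000000 : ℕ) := by
    simpa only [Hf, Qf, habs] using hsum
  obtain ⟨u, p, q, r, hu, hperp, hpos, hcov, hS⟩ :=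
    exists_cover_aux (1 / 100) 4000000 (by norm_num) (by rw [habs]; norm_num) _ hsum'
  refine ⟨4000000 + 4000000, u, p, q, r, by norm_num, hu, hperp, hpos, hcov, ?_⟩
  refine hS.trans ?_
  apply mul_le_mul_of_nonneg_left _ (Real.sqrt_nonneg 2)
  norm_num

end Crest.Agent.Helper1.TetraCover
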